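import Vale.Agent.P179B.Stmt
import Vale.Agent.P179B.Main

open Vale.Agent.P179

theorem Vale.Agent.Results.P179.Block.result (p : ℕ) [Fact p.Prime] (G : Type) [Group G] [Fintype G]
    (hab : ∀ S : Sylow p G, ∀ a ∈ S, ∀ b ∈ S, a * b = b * a)
    (k : Type) [Field k] [IsAlgClosed k] [CharP k p] (ψ : integralClosure ℤ ℂ →+* k)
    (B : MonoidAlgebra k G) (hB : IsBlock B) :
    numSimpleIn B ≡ numWeightsIn p ψ B [MOD p] :=
  block_congr (Ab.of_sylow hab) ψ hB
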