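import Vale.Agent.P179.Stmt
import Vale.Agent.P179.Main

open Vale.Agent.P179

theorem Vale.Agent.Results.P179.ModP.result (p : ℕ) [Fact p.Prime] (G : Type) [Group G] [Finite G]
    (hab : ∀ S : Sylow p G, ∀ a ∈ S, ∀ b ∈ S, a * b = b * a)
    (k : Type) [Field k] [IsAlgClosed k] [CharP k p] :
    numSimple k G ≡ numWeights p G [MOD p] := by
  have := Fintype.ofFinite G
  rw [brauer (p := p) k]
  exact reg_weights (Ab.of_sylow hab)
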