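import Vale.Agent.P179B.Stmt
import Vale.Agent.P179C.Main

open Vale.Agent.P179

theorem Vale.Agent.Results.P179.Normal.result (p : ℕ) [Fact p.Prime] (G : Type) [Group G] [Fintype G]
    (N : Subgroup G) [N.Normal] (hN : IsPGroup p N)
    (hab : ∀ S : Sylow p (G ⧸ N), ∀ a ∈ S, ∀ b ∈ S, a * b = b * a)
    (k : Type) [Field k] [IsAlgClosed k] [CharP k p] (ψ : integralClosure ℤ ℂ →+* k)
    (B : MonoidAlgebra k G) (hB : IsBlock B) :
    numSimpleIn B ≡ numWeightsIn p ψ B [MOD p] := by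
  have := Fintype.ofFinite (G ⧸ N)
  exact quot_congr (QuotientGroup.mk' N) (QuotientGroup.mk'_surjective N)
    (by rwa [QuotientGroup.ker_mk']) (Ab.of_sylow hab) ψ hB
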